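import Vale.Agent.P245.Defs

set_option linter.all false

open MeasureTheory
open scoped ContDiff

namespace Vale.Agent.P245.H788

open Vale.Agent.P245

/-! ### a product lemma -/

theorem mp {X : Type*} [MeasurableSpace X] (μ : Measure X) [SFinite μ] {u : X → ℝ} (hu : Measurable u) :
    MeasurePreserving (fun p : X × ℝ => (p.1, u p.1 - p.2)) (μ.prod volume) (μ.prod volume) := by
  refine MeasurePreserving.skew_product (g := fun x y => u x - y) (MeasurePreserving.id μ) ?_ ?_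
  · exact (hu.comp measurable_fst).sub measurable_snd
  · exact Filter.Eventually.of_forall fun x => (Measure.measurePreserving_sub_left volume (u x)).map_eq

theorem shift {X : Type*} [MeasurableSpace X] (μ : Measure X) [SFinite μ] {u : X → ℝ} (hu : Measurable u)
    {F : X → ℝ} (hF : Integrable F μ) {k : ℝ → ℝ} (hk : Integrable k) :
    Integrable (fun p : X × ℝ => F p.1 * k (u p.1 - p.2)) (μ.prod volume) ∧
      Integrable (fun y => ∫ x, F x * k (u x - y) ∂μ) ∧
      ∫ y, ∫ x, F x * k (u x - y) ∂μ = (∫ x, F x ∂μ) * ∫ t, k t := by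
  have h1 : Integrable (fun p : X × ℝ => F p.1 * k p.2) (μ.prod volume) := hF.mul_prod hk
  have h2 : Integrable (fun p : X × ℝ => F p.1 * k (u p.1 - p.2)) (μ.prod volume) :=
    (mp μ hu).integrable_comp_of_integrable h1
  refine ⟨h2, h2.integral_prod_right, ?_⟩
  rw [integral_integral_swap (f := fun y x => F x * k (u x - y)) h2.swap]
  have : ∀ x, ∫ y, F x * k (u x - y) = F x * ∫ t, k t := by
    intro x
    rw [integral_const_mul, integral_sub_left_eq_self]
  simp_rw [this]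
  rw [integral_mul_const]

/-- the Gaussian density -/
noncomputable def ga (t : ℝ) : ℝ := (√(2 * Real.pi))⁻¹ * Real.exp (-(t ^ 2) / 2)

theorem ga_pos (t : ℝ) : 0 < ga t := by
  unfold ga
  have := Real.pi_pos
  positivity

theorem ga_eq (t : ℝ) : ga t = ProbabilityTheory.gaussianPDFReal 0 1 t := by
  unfold ga ProbabilityTheory.gaussianPDFReal
  simp

theorem ga_int : Integrable ga ∧ ∫ t, ga t = 1 := by
  have e : ga = ProbabilityTheory.gaussianPDFReal 0 1 := funext ga_eq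
  rw [e]
  exact ⟨ProbabilityTheory.integrable_gaussianPDFReal 0 1,
    ProbabilityTheory.integral_gaussianPDFReal_eq_one 0 one_ne_zero⟩

theorem ga1 : Integrable (fun t => t * ga t) ∧ ∫ t, t * ga t = 0 := by
  have h : Integrable (fun t : ℝ => t * Real.exp (-(1/2) * t ^ 2)) :=
    integrable_mul_exp_neg_mul_sq (by norm_num)
  have e : (fun t => t * ga t) = fun t : ℝ => (√(2 * Real.pi))⁻¹ * (t * Real.exp (-(1/2) * t ^ 2)) := by
    funext t; unfold ga
    rw [show -(t ^ 2) / 2 = -(1/2) * t ^ 2 by ring]; ring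
  refine ⟨by rw [e]; exact h.const_mul _, ?_⟩
  have h2 : ∫ t, t * ga t = ∫ t, (-t) * ga (-t) := (integral_neg_eq_self (fun t => t * ga t) volume).symm
  have h3 : ∀ t, (-t) * ga (-t) = -(t * ga t) := by
    intro t; unfold ga; rw [neg_sq]; ring
  simp_rw [h3] at h2
  rw [integral_neg] at h2
  linarith

theorem ga2 : Integrable (fun t => t ^ 2 * ga t) ∧ ∫ t, t ^ 2 * ga t = 1 := by
  have h : Integrable (fun t : ℝ => t ^ (2:ℝ) * Real.exp (-(1/2) * t ^ 2)) :=
    integrable_rpow_mul_exp_neg_mul_sq (by norm_num) (by norm_num)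
  have e : (fun t => t ^ 2 * ga t) = fun t : ℝ => (√(2 * Real.pi))⁻¹ * (t ^ (2:ℝ) * Real.exp (-(1/2) * t ^ 2)) := by
    funext t; unfold ga
    rw [show -(t ^ 2) / 2 = -(1/2) * t ^ 2 by ring, Real.rpow_two]; ring
  refine ⟨by rw [e]; exact h.const_mul _, ?_⟩
  have hv := ProbabilityTheory.variance_id_gaussianReal (μ := 0) (v := 1)
  rw [ProbabilityTheory.variance_of_integral_eq_zero] at hv
  · rw [ProbabilityTheory.integral_gaussianReal_eq_integral_smul one_ne_zero] at hv
    simp only [id, smul_eq_mul, NNReal.coe_one] at hv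
    rw [← hv]
    congr 1
    funext t
    rw [ga_eq]; simp [mul_comm]
  · fun_prop
  · simp

/-! ### gradients -/

variable {n : ℕ}

theorem grad_mul {f g : EuclideanSpace ℝ (Fin n) → ℝ} {x : EuclideanSpace ℝ (Fin n)}
    {f' g' : EuclideanSpace ℝ (Fin n)} (hf : HasGradientAt f f' x) (hg : HasGradientAt g g' x) :
    HasGradientAt (fun x => f x * g x) (f x • g' + g x • f') x := by
  rw [hasGradientAt_iff_hasFDerivAt] at *
  have h := hf.mul hg
  have e : InnerProductSpace.toDual ℝ (EuclideanSpace ℝ (Fin n)) (f x • g' + g x • f') =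
      f x • InnerProductSpace.toDual ℝ (EuclideanSpace ℝ (Fin n)) g' +
        g x • InnerProductSpace.toDual ℝ (EuclideanSpace ℝ (Fin n)) f' := by
    apply ContinuousLinearMap.ext
    intro z
    simp [inner_add_left, inner_smul_left]
  rw [e]
  exact h

theorem grad_w (v : EuclideanSpace ℝ (Fin n)) (y : ℝ) (x : EuclideanSpace ℝ (Fin n)) :
    HasGradientAt (fun x => Real.exp (-(inner ℝ x v - y) ^ 2 / 4))
      ((-((inner ℝ x v - y) / 2) * Real.exp (-(inner ℝ x v - y) ^ 2 / 4)) • v) x := by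
  rw [hasGradientAt_iff_hasFDerivAt]
  have hu : HasFDerivAt (fun x : EuclideanSpace ℝ (Fin n) => (inner ℝ x v : ℝ)) (innerSL ℝ v) x := by
    have h := (innerSL ℝ v).hasFDerivAt (x := x)
    refine h.congr_of_eventuallyEq (Filter.Eventually.of_forall fun z => ?_)
    simp [real_inner_comm]
  have hφ : HasDerivAt (fun t : ℝ => Real.exp (-(t - y) ^ 2 / 4))
      (-((inner ℝ x v - y) / 2) * Real.exp (-(inner ℝ x v - y) ^ 2 / 4)) (inner ℝ x v) := by
    have h1 : HasDerivAt (fun t : ℝ => -(t - y) ^ 2 / 4) (-(2 * (inner ℝ x v - y)) / 4) (inner ℝ x v) := by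
      have h0 := ((hasDerivAt_id (inner ℝ x v : ℝ)).sub_const y).pow 2
      have h2 := (h0.neg).div_const 4
      have h3 : HasDerivAt (fun t : ℝ => -(t - y) ^ 2 / 4)
        (-(((2 : ℕ) : ℝ) * (id (inner ℝ x v : ℝ) - y) ^ (2 - 1) * 1) / 4) (inner ℝ x v) := h2
      have e : -(((2 : ℕ) : ℝ) * (id (inner ℝ x v : ℝ) - y) ^ (2 - 1) * 1) / 4 =
        -(2 * (inner ℝ x v - y)) / 4 := by norm_num
      rw [e] at h3
      exact h3
    have h4 := h1.exp
    have e : Real.exp (-(inner ℝ x v - y) ^ 2 / 4) * (-(2 * (inner ℝ x v - y)) / 4) =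
      -((inner ℝ x v - y) / 2) * Real.exp (-(inner ℝ x v - y) ^ 2 / 4) := by ring
    rw [e] at h4
    exact h4
  have h := hφ.comp_hasFDerivAt x hu
  have e : InnerProductSpace.toDual ℝ (EuclideanSpace ℝ (Fin n))
      ((-((inner ℝ x v - y) / 2) * Real.exp (-(inner ℝ x v - y) ^ 2 / 4)) • v) =
      (-((inner ℝ x v - y) / 2) * Real.exp (-(inner ℝ x v - y) ^ 2 / 4)) • innerSL ℝ v := by
    apply ContinuousLinearMap.ext
    intro z
    simp [inner_smul_left]
  rw [e]
  exact h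

theorem ent_smul {μ : Measure (EuclideanSpace ℝ (Fin n))} {s : ℝ} (hs : 0 < s)
    {h : EuclideanSpace ℝ (Fin n) → ℝ} (h0 : ∀ x, 0 ≤ h x) (hi : Integrable h μ)
    (hl : Integrable (fun x => h x * Real.log (h x)) μ) :
    Entropy μ (fun x => s * h x) = s * Entropy μ h := by
  unfold Entropy
  have e1 : ∀ x, s * h x * Real.log (s * h x) = s * Real.log s * h x + s * (h x * Real.log (h x)) := by
    intro x
    rcases (h0 x).eq_or_lt with h | h
    · rw [← h]; simp
    · rw [Real.log_mul hs.ne' h.ne']; ring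
  simp_rw [e1]
  rw [integral_add (hi.const_mul _) (hl.const_mul _), integral_const_mul, integral_const_mul,
    integral_const_mul]
  have hm : 0 ≤ ∫ x, h x ∂μ := integral_nonneg h0
  rcases hm.eq_or_lt with hm | hm
  · rw [← hm]; simp
  · rw [Real.log_mul hs.ne' hm.ne']; ring

theorem cint {μ : Measure (EuclideanSpace ℝ (Fin n))} [IsProbabilityMeasure μ]
    {h : EuclideanSpace ℝ (Fin n) → ℝ} (hc : Continuous h) (hs : HasCompactSupport h) :
    Integrable h μ := hc.integrable_of_hasCompactSupport hs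

theorem star {μ : Measure (EuclideanSpace ℝ (Fin n))} [IsProbabilityMeasure μ]
    {a g : EuclideanSpace ℝ (Fin n) → ℝ} (ha : Continuous a) (hac : HasCompactSupport a)
    (ha0 : ∀ x, 0 ≤ a x) (hg : Continuous g) (hg0 : ∀ x, 0 < g x) (hF : 0 < ∫ x, a x ∂μ) :
    (∫ x, a x * Real.log (a x) * g x ∂μ) - (∫ x, a x * g x ∂μ) * Real.log (∫ x, a x ∂μ) ≤
      Entropy μ (fun x => a x * g x) := by
  have i1 : Integrable a μ := cint ha hac
  have i2 : Integrable (fun x => a x * g x) μ := cint (ha.mul hg) hac.mul_right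
  have i3 : Integrable (fun x => a x * Real.log (a x) * g x) μ :=
    cint ((Real.continuous_mul_log.comp ha).mul hg) (hac.mul_right.mul_right)
  have i4 : Integrable (fun x => a x * g x * Real.log (a x * g x)) μ :=
    cint (Real.continuous_mul_log.comp (ha.mul hg)) (hac.mul_right.mul_right)
  have hm0 : 0 ≤ ∫ x, a x * g x ∂μ := integral_nonneg fun x => mul_nonneg (ha0 x) (hg0 x).le
  have hm : 0 < ∫ x, a x * g x ∂μ := by
    rcases hm0.eq_or_lt with h | h
    · exfalso
      have h1 := (integral_eq_zero_iff_of_nonneg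
        (fun x => mul_nonneg (ha0 x) (hg0 x).le) i2).1 h.symm
      have h2 : a =ᵐ[μ] 0 := by
        filter_upwards [h1] with x hx
        have : a x * g x = 0 := hx
        rcases mul_eq_zero.1 this with h | h
        · exact h
        · exact absurd h (hg0 x).ne'
      have h3 : ∫ x, a x ∂μ = 0 := by rw [integral_congr_ae h2]; simp
      linarith
    · exact h
  obtain ⟨F, hFd⟩ : ∃ F, F = ∫ x, a x ∂μ := ⟨_, rfl⟩
  obtain ⟨m, hmd⟩ : ∃ m, m = ∫ x, a x * g x ∂μ := ⟨_, rfl⟩
  rw [← hFd] at hF ⊢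
  have hpt : ∀ x, a x * Real.log (a x) * g x + (Real.log m - Real.log F) * (a x * g x) +
      a x * g x - (m / F) * a x ≤ a x * g x * Real.log (a x * g x) := by
    intro x
    rw [← hmd] at hm
    rcases (ha0 x).eq_or_lt with h | h
    · rw [← h]; simp
    · have hg' := hg0 x
      have h1 : Real.log (m / (F * g x)) ≤ m / (F * g x) - 1 := Real.log_le_sub_one_of_pos (by positivity)
      rw [Real.log_div hm.ne' (by positivity), Real.log_mul hF.ne' hg'.ne'] at h1
      rw [Real.log_mul h.ne' hg'.ne']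
      have h2 := mul_le_mul_of_nonneg_left h1 (mul_pos h hg').le
      have e : a x * g x * (m / (F * g x) - 1) = (m / F) * a x - a x * g x := by
        field_simp
      rw [e] at h2
      nlinarith [h2]
  have j1 : Integrable (fun x => (Real.log m - Real.log F) * (a x * g x)) μ := i2.const_mul _
  have j2 : Integrable (fun x => (m / F) * a x) μ := i1.const_mul _
  have k1 : Integrable (fun x => a x * Real.log (a x) * g x +
      (Real.log m - Real.log F) * (a x * g x)) μ := i3.add j1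
  have k2 : Integrable (fun x => a x * Real.log (a x) * g x +
      (Real.log m - Real.log F) * (a x * g x) + a x * g x) μ := k1.add i2
  have k3 : Integrable (fun x => a x * Real.log (a x) * g x +
      (Real.log m - Real.log F) * (a x * g x) + a x * g x - (m / F) * a x) μ := k2.sub j2
  have hI := integral_mono k3 i4 hpt
  have e1 : ∫ x, (a x * Real.log (a x) * g x + (Real.log m - Real.log F) * (a x * g x) +
      a x * g x - (m / F) * a x) ∂μ = (∫ x, a x * Real.log (a x) * g x ∂μ) +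
      (Real.log m - Real.log F) * m + m - (m / F) * F := by
    rw [integral_sub k2 j2, integral_add k1 i2, integral_add i3 j1,
      integral_const_mul, integral_const_mul, ← hFd, ← hmd]
  have e2 : (m / F) * F = m := div_mul_cancel₀ _ hF.ne'
  have hI' : (∫ x, a x * Real.log (a x) * g x ∂μ) +
      (Real.log m - Real.log F) * m + m - (m / F) * F ≤ ∫ x, a x * g x * Real.log (a x * g x) ∂μ := by
    rw [← e1]; exact hI
  unfold Entropy
  rw [← hmd]
  rw [e2] at hI'
  linarith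

theorem one {μ : Measure (EuclideanSpace ℝ (Fin n))} [IsProbabilityMeasure μ] {K T : ℝ} (hK : 0 ≤ K)
    {f : EuclideanSpace ℝ (Fin n) → ℝ} (hf : ContDiff ℝ ∞ f) (hfc : HasCompactSupport f)
    (v : EuclideanSpace ℝ (Fin n))
    (h : ∀ y : ℝ, Entropy μ (fun x => (f x * Real.exp (-(inner ℝ x v - y) ^ 2 / 4)) ^ 2) ≤
      K * ((∫ x, ‖gradient (fun x => f x * Real.exp (-(inner ℝ x v - y) ^ 2 / 4)) x‖ ^ 2 ∂μ) +
        T * ∫ x, (f x * Real.exp (-(inner ℝ x v - y) ^ 2 / 4)) ^ 2 ∂μ)) :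
    Entropy μ (fun x => f x ^ 2) ≤
      K * ((∫ x, ‖gradient f x‖ ^ 2 ∂μ) + (T + ‖v‖ ^ 2 / 4) * ∫ x, f x ^ 2 ∂μ) := by
  have hfcont : Continuous f := hf.continuous
  have hgc : Continuous (gradient f) := by
    have h1 : Continuous (fderiv ℝ f) := hf.continuous_fderiv (by simp)
    exact (InnerProductSpace.toDual ℝ (EuclideanSpace ℝ (Fin n))).symm.continuous.comp h1
  have hgs : HasCompactSupport (gradient f) := by
    have h1 := hfc.fderiv (𝕜 := ℝ)
    refine h1.comp_left (g := (InnerProductSpace.toDual ℝ (EuclideanSpace ℝ (Fin n))).symm) (map_zero _)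
  have h2c : Continuous (fun x => f x ^ 2) := hfcont.pow 2
  have h2s : HasCompactSupport (fun x => f x ^ 2) :=
    hfc.comp_left (g := fun t : ℝ => t ^ 2) (by simp)
  have iF : Integrable (fun x => f x ^ 2) μ := cint h2c h2s
  have iL : Integrable (fun x => f x ^ 2 * Real.log (f x ^ 2)) μ :=
    cint (Real.continuous_mul_log.comp h2c) h2s.mul_right
  have iG : Integrable (fun x => ‖gradient f x‖ ^ 2) μ := by
    refine cint (hgc.norm.pow 2) ?_
    exact hgs.norm.comp_left (g := fun t : ℝ => t ^ 2) (by simp)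
  have iC : Integrable (fun x => f x * inner ℝ (gradient f x) v) μ :=
    cint (hfcont.mul (hgc.inner continuous_const)) hfc.mul_right
  have hF0 : 0 ≤ ∫ x, f x ^ 2 ∂μ := integral_nonneg fun x => sq_nonneg _
  have hG0 : 0 ≤ ∫ x, ‖gradient f x‖ ^ 2 ∂μ := integral_nonneg fun x => by positivity
  rcases hF0.eq_or_lt with hF | hF
  · have h1 := (integral_eq_zero_iff_of_nonneg (fun x => sq_nonneg (f x)) iF).1 hF.symm
    have h2 : ∫ x, f x ^ 2 * Real.log (f x ^ 2) ∂μ = 0 := by
      rw [← integral_zero (EuclideanSpace ℝ (Fin n)) ℝ (μ := μ)]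
      refine integral_congr_ae ?_
      filter_upwards [h1] with x hx
      have : f x ^ 2 = 0 := hx
      rw [this]; simp
    unfold Entropy
    rw [h2, ← hF]
    simp only [zero_mul, sub_zero, mul_zero, add_zero]
    positivity
  have hu : Measurable (fun x : EuclideanSpace ℝ (Fin n) => (inner ℝ x v : ℝ)) := by
    have : Continuous (fun x : EuclideanSpace ℝ (Fin n) => (inner ℝ x v : ℝ)) := by fun_prop
    exact this.measurable
  obtain ⟨-, a1, b1⟩ := shift μ hu iL ga_int.1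
  obtain ⟨-, a2, b2⟩ := shift μ hu iF ga_int.1
  obtain ⟨-, a3, b3⟩ := shift μ hu iG ga_int.1
  obtain ⟨-, a4, b4⟩ := shift μ hu iC ga1.1
  obtain ⟨-, a5, b5⟩ := shift μ hu iF ga2.1
  have key : ∀ y : ℝ,
      (∫ x, f x ^ 2 * Real.log (f x ^ 2) * ga (inner ℝ x v - y) ∂μ) -
        (∫ x, f x ^ 2 * ga (inner ℝ x v - y) ∂μ) * Real.log (∫ x, f x ^ 2 ∂μ) ≤
      K * ((((∫ x, ‖gradient f x‖ ^ 2 * ga (inner ℝ x v - y) ∂μ) -
        (∫ x, f x * inner ℝ (gradient f x) v * ((inner ℝ x v - y) * ga (inner ℝ x v - y)) ∂μ)) +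
        ‖v‖ ^ 2 / 4 * (∫ x, f x ^ 2 * ((inner ℝ x v - y) ^ 2 * ga (inner ℝ x v - y)) ∂μ)) +
        T * ∫ x, f x ^ 2 * ga (inner ℝ x v - y) ∂μ) := by
    intro y
    obtain ⟨s, hs⟩ : ∃ s, s = √(2 * Real.pi) := ⟨_, rfl⟩
    have hs0 : 0 < s := by rw [hs]; have := Real.pi_pos; positivity
    have hw : ∀ t : ℝ, Real.exp (-t ^ 2 / 4) ^ 2 = s * ga t := by
      intro t
      unfold ga
      rw [← hs, ← mul_assoc, mul_inv_cancel₀ hs0.ne', one_mul, ← Real.exp_nat_mul]
      congr 1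
      push_cast
      ring
    have cu : Continuous (fun x : EuclideanSpace ℝ (Fin n) => (inner ℝ x v - y : ℝ)) := by fun_prop
    have cga : Continuous ga := by unfold ga; fun_prop
    have cg : Continuous (fun x : EuclideanSpace ℝ (Fin n) => ga (inner ℝ x v - y)) := cga.comp cu
    have hst := star (μ := μ) h2c h2s (fun x => sq_nonneg (f x)) cg (fun x => ga_pos _) hF
    have q1 : Integrable (fun x => f x ^ 2 * ga (inner ℝ x v - y)) μ := cint (h2c.mul cg) h2s.mul_right
    have q2 : Integrable (fun x => f x ^ 2 * ga (inner ℝ x v - y) *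
        Real.log (f x ^ 2 * ga (inner ℝ x v - y))) μ :=
      cint (Real.continuous_mul_log.comp (h2c.mul cg)) (h2s.mul_right.mul_right)
    have e1 : ∀ x, (f x * Real.exp (-(inner ℝ x v - y) ^ 2 / 4)) ^ 2 =
        s * (f x ^ 2 * ga (inner ℝ x v - y)) := by
      intro x
      rw [mul_pow, hw]; ring
    have hgr : ∀ x, ‖gradient (fun x => f x * Real.exp (-(inner ℝ x v - y) ^ 2 / 4)) x‖ ^ 2 =
        s * (((‖gradient f x‖ ^ 2 * ga (inner ℝ x v - y)) -
          f x * inner ℝ (gradient f x) v * ((inner ℝ x v - y) * ga (inner ℝ x v - y))) +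
          ‖v‖ ^ 2 / 4 * (f x ^ 2 * ((inner ℝ x v - y) ^ 2 * ga (inner ℝ x v - y)))) := by
      intro x
      have d1 : HasGradientAt f (gradient f x) x :=
        ((hf.differentiable (by simp)) x).hasGradientAt
      have d2 := (grad_mul d1 (grad_w v y x)).gradient
      rw [d2]
      obtain ⟨w, hwd⟩ : ∃ w, w = Real.exp (-(inner ℝ x v - y) ^ 2 / 4) := ⟨_, rfl⟩
      have hw' : w ^ 2 = s * ga (inner ℝ x v - y) := by rw [hwd]; exact hw _
      rw [← hwd]
      obtain ⟨t, ht⟩ : ∃ t : ℝ, t = inner ℝ x v - y := ⟨_, rfl⟩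
      rw [← ht] at hw' ⊢
      rw [norm_add_sq_real, norm_smul, norm_smul, norm_smul, inner_smul_left, inner_smul_left,
        inner_smul_right, real_inner_comm (gradient f x) v]
      simp only [mul_pow, Real.norm_eq_abs, sq_abs, conj_trivial]
      have : ∀ A : ℝ, w ^ 2 * A = s * ga t * A := fun A => by rw [hw']
      linear_combination (‖gradient f x‖ ^ 2 - f x * t * inner ℝ (gradient f x) v +
        f x ^ 2 * t ^ 2 / 4 * ‖v‖ ^ 2) * hw'
    have r1 : Integrable (fun x => ‖gradient f x‖ ^ 2 * ga (inner ℝ x v - y)) μ :=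
      cint ((hgc.norm.pow 2).mul cg) ((hgs.norm.comp_left (g := fun t : ℝ => t ^ 2) (by simp)).mul_right)
    have r2 : Integrable (fun x => f x * inner ℝ (gradient f x) v *
        ((inner ℝ x v - y) * ga (inner ℝ x v - y))) μ :=
      cint ((hfcont.mul (hgc.inner continuous_const)).mul (cu.mul cg)) (hfc.mul_right.mul_right)
    have r3 : Integrable (fun x => f x ^ 2 * ((inner ℝ x v - y) ^ 2 * ga (inner ℝ x v - y))) μ :=
      cint (h2c.mul ((cu.pow 2).mul cg)) h2s.mul_right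
    have r12 : Integrable (fun x => (‖gradient f x‖ ^ 2 * ga (inner ℝ x v - y)) -
        f x * inner ℝ (gradient f x) v * ((inner ℝ x v - y) * ga (inner ℝ x v - y))) μ := r1.sub r2
    have r4 : Integrable (fun x => ‖v‖ ^ 2 / 4 *
        (f x ^ 2 * ((inner ℝ x v - y) ^ 2 * ga (inner ℝ x v - y)))) μ := r3.const_mul _
    have hy := h y
    simp_rw [e1, hgr] at hy
    rw [ent_smul hs0 (fun x => mul_nonneg (sq_nonneg _) (ga_pos _).le) q1 q2, integral_const_mul,
      integral_const_mul, integral_add r12 r4, integral_sub r1 r2,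
      integral_const_mul] at hy
    have hy2 : s * Entropy μ (fun x => f x ^ 2 * ga (inner ℝ x v - y)) ≤
      s * (K * ((((∫ x, ‖gradient f x‖ ^ 2 * ga (inner ℝ x v - y) ∂μ) -
        (∫ x, f x * inner ℝ (gradient f x) v * ((inner ℝ x v - y) * ga (inner ℝ x v - y)) ∂μ)) +
        ‖v‖ ^ 2 / 4 * (∫ x, f x ^ 2 * ((inner ℝ x v - y) ^ 2 * ga (inner ℝ x v - y)) ∂μ)) +
        T * ∫ x, f x ^ 2 * ga (inner ℝ x v - y) ∂μ)) := by
      refine hy.trans (le_of_eq ?_)
      ring
    exact hst.trans (le_of_mul_le_mul_left hy2 hs0)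
  have k1 : Integrable (fun y : ℝ => (∫ x, ‖gradient f x‖ ^ 2 * ga (inner ℝ x v - y) ∂μ) -
        (∫ x, f x * inner ℝ (gradient f x) v * ((inner ℝ x v - y) * ga (inner ℝ x v - y)) ∂μ)) :=
    a3.sub a4
  have k0 : Integrable (fun y : ℝ => ‖v‖ ^ 2 / 4 *
      (∫ x, f x ^ 2 * ((inner ℝ x v - y) ^ 2 * ga (inner ℝ x v - y)) ∂μ)) :=
    a5.const_mul (‖v‖ ^ 2 / 4)
  have k2 : Integrable (fun y : ℝ => ((∫ x, ‖gradient f x‖ ^ 2 * ga (inner ℝ x v - y) ∂μ) -
        (∫ x, f x * inner ℝ (gradient f x) v * ((inner ℝ x v - y) * ga (inner ℝ x v - y)) ∂μ)) +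
        ‖v‖ ^ 2 / 4 * (∫ x, f x ^ 2 * ((inner ℝ x v - y) ^ 2 * ga (inner ℝ x v - y)) ∂μ)) :=
    k1.add k0
  have k00 : Integrable (fun y : ℝ => T * ∫ x, f x ^ 2 * ga (inner ℝ x v - y) ∂μ) := a2.const_mul T
  have k3 : Integrable (fun y : ℝ => (((∫ x, ‖gradient f x‖ ^ 2 * ga (inner ℝ x v - y) ∂μ) -
        (∫ x, f x * inner ℝ (gradient f x) v * ((inner ℝ x v - y) * ga (inner ℝ x v - y)) ∂μ)) +
        ‖v‖ ^ 2 / 4 * (∫ x, f x ^ 2 * ((inner ℝ x v - y) ^ 2 * ga (inner ℝ x v - y)) ∂μ)) +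
        T * ∫ x, f x ^ 2 * ga (inner ℝ x v - y) ∂μ) := k2.add k00
  have hI := integral_mono (a1.sub (a2.mul_const _)) (k3.const_mul K) key
  have e1 : ∫ y, ((∫ x, f x ^ 2 * Real.log (f x ^ 2) * ga (inner ℝ x v - y) ∂μ) -
        (∫ x, f x ^ 2 * ga (inner ℝ x v - y) ∂μ) * Real.log (∫ x, f x ^ 2 ∂μ)) =
      Entropy μ (fun x => f x ^ 2) := by
    rw [integral_sub a1 (a2.mul_const _), integral_mul_const, b1, b2, ga_int.2]
    unfold Entropy
    ring
  have e2 : ∫ y, K * ((((∫ x, ‖gradient f x‖ ^ 2 * ga (inner ℝ x v - y) ∂μ) -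
        (∫ x, f x * inner ℝ (gradient f x) v * ((inner ℝ x v - y) * ga (inner ℝ x v - y)) ∂μ)) +
        ‖v‖ ^ 2 / 4 * (∫ x, f x ^ 2 * ((inner ℝ x v - y) ^ 2 * ga (inner ℝ x v - y)) ∂μ)) +
        T * ∫ x, f x ^ 2 * ga (inner ℝ x v - y) ∂μ) =
      K * ((∫ x, ‖gradient f x‖ ^ 2 ∂μ) + (T + ‖v‖ ^ 2 / 4) * ∫ x, f x ^ 2 ∂μ) := by
    rw [integral_const_mul, integral_add k2 k00,
      integral_add k1 k0, integral_sub a3 a4, integral_const_mul,
      integral_const_mul, b2, b3, b4, b5, ga_int.2, ga1.2, ga2.2]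
    ring
  calc Entropy μ (fun x => f x ^ 2) = _ := e1.symm
    _ ≤ _ := hI
    _ = _ := e2

/-- From the logarithmic Sobolev inequality for quasi-concave functions to functions which are
quasi-concave after multiplication by all Gaussian factors in the directions `v j`. -/
theorem semi {μ : Measure (EuclideanSpace ℝ (Fin n))} [IsProbabilityMeasure μ] {K : ℝ} (hK : 0 ≤ K)
    (hQ : ∀ f : EuclideanSpace ℝ (Fin n) → ℝ, ContDiff ℝ ∞ f → HasCompactSupport f →
      (∀ x, 0 ≤ f x) → QuasiconcaveOn ℝ Set.univ f →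
        Entropy μ (fun x => f x ^ 2) ≤ K * ∫ x, ‖gradient f x‖ ^ 2 ∂μ) :
    ∀ (k : ℕ) (v : Fin k → EuclideanSpace ℝ (Fin n)) (f : EuclideanSpace ℝ (Fin n) → ℝ),
      ContDiff ℝ ∞ f → HasCompactSupport f → (∀ x, 0 ≤ f x) →
      (∀ y : Fin k → ℝ, QuasiconcaveOn ℝ Set.univ
        (fun x => f x * Real.exp (-(∑ j, (inner ℝ x (v j) - y j) ^ 2) / 4))) →
      Entropy μ (fun x => f x ^ 2) ≤
        K * ((∫ x, ‖gradient f x‖ ^ 2 ∂μ) + (∑ j, ‖v j‖ ^ 2) / 4 * ∫ x, f x ^ 2 ∂μ) := by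
  intro k
  induction k with
  | zero =>
    intro v f hf hfc hf0 hq
    have h1 := hq (fun j => j.elim0)
    simp only [Finset.univ_eq_empty, Finset.sum_empty, neg_zero, zero_div, Real.exp_zero, mul_one] at h1
    have h2 := hQ f hf hfc hf0 h1
    simpa using h2
  | succ k ih =>
    intro v f hf hfc hf0 hq
    have h1 := one (μ := μ) (K := K) (T := (∑ j : Fin k, ‖v j.succ‖ ^ 2) / 4) hK hf hfc (v 0) ?_
    · refine h1.trans (le_of_eq ?_)
      rw [Fin.sum_univ_succ]
      ring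
    · intro y0
      refine ih (fun j => v j.succ) _ ?_ hfc.mul_right ?_ ?_
      · have : ContDiff ℝ ∞ (fun x : EuclideanSpace ℝ (Fin n) =>
            Real.exp (-(inner ℝ x (v 0) - y0) ^ 2 / 4)) := by
          have h0 : ContDiff ℝ ∞ (fun x : EuclideanSpace ℝ (Fin n) => (inner ℝ x (v 0) : ℝ)) :=
            contDiff_id.inner ℝ contDiff_const
          exact ((((h0.sub contDiff_const).pow 2).neg).div_const 4).exp
        exact hf.mul this
      · intro x
        exact mul_nonneg (hf0 x) (Real.exp_pos _).le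
      · intro y
        have h2 := hq (Fin.cons y0 y)
        have e : ∀ x : EuclideanSpace ℝ (Fin n),
            f x * Real.exp (-(∑ j, (inner ℝ x (v j) - (Fin.cons y0 y : Fin (k + 1) → ℝ) j) ^ 2) / 4) =
            f x * Real.exp (-(inner ℝ x (v 0) - y0) ^ 2 / 4) *
              Real.exp (-(∑ j : Fin k, (inner ℝ x (v j.succ) - y j) ^ 2) / 4) := by
          intro x
          rw [Fin.sum_univ_succ, mul_assoc, ← Real.exp_add]
          simp only [Fin.cons_zero, Fin.cons_succ]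
          congr 2
          ring
        simp_rw [e] at h2
        exact h2

/-- log-semiconcavity `D² log f² ≤ ∑ v_j v_jᵀ` implies the quasi-concavity hypothesis of `semi` -/
theorem quasi_of_log {k : ℕ} {v : Fin k → EuclideanSpace ℝ (Fin n)}
    {f : EuclideanSpace ℝ (Fin n) → ℝ} (hf0 : ∀ x, 0 ≤ f x)
    (h : ConcaveOn ℝ {x | 0 < f x} (fun x => Real.log (f x) - (∑ j, inner ℝ x (v j) ^ 2) / 4))
    (y : Fin k → ℝ) : QuasiconcaveOn ℝ Set.univ
      (fun x => f x * Real.exp (-(∑ j, (inner ℝ x (v j) - y j) ^ 2) / 4)) := by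
  intro r
  rcases le_or_gt r 0 with hr | hr
  · have e : {x | x ∈ Set.univ ∧ r ≤ f x * Real.exp (-(∑ j, (inner ℝ x (v j) - y j) ^ 2) / 4)} =
        Set.univ := by
      ext x
      simp only [Set.mem_univ, true_and, Set.mem_setOf_eq, iff_true]
      exact hr.trans (mul_nonneg (hf0 x) (Real.exp_pos _).le)
    rw [e]; exact convex_univ
  · obtain ⟨c, hc⟩ : ∃ c, c = (∑ j, y j ^ 2) / 4 := ⟨_, rfl⟩
    have hlin : ConcaveOn ℝ {x | 0 < f x}
        (fun x => (∑ j, inner ℝ x (v j) * y j) / 2 - c) := by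
      refine ⟨h.1, fun x _ z _ a b ha hb hab => le_of_eq ?_⟩
      simp only [smul_eq_mul, inner_add_left, inner_smul_left, conj_trivial]
      have e1 : ∑ j, (a * inner ℝ x (v j) + b * inner ℝ z (v j)) * y j =
          a * (∑ j, inner ℝ x (v j) * y j) + b * ∑ j, inner ℝ z (v j) * y j := by
        rw [Finset.mul_sum, Finset.mul_sum, ← Finset.sum_add_distrib]
        exact Finset.sum_congr rfl fun j _ => by ring
      rw [e1]
      have : c = (a + b) * c := by rw [hab, one_mul]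
      linear_combination this
    have hsum := h.add hlin
    have e : {x | x ∈ Set.univ ∧ r ≤ f x * Real.exp (-(∑ j, (inner ℝ x (v j) - y j) ^ 2) / 4)} =
        {x | x ∈ {x | 0 < f x} ∧ Real.log r ≤
          ((fun x => Real.log (f x) - (∑ j, inner ℝ x (v j) ^ 2) / 4) +
            fun x => (∑ j, inner ℝ x (v j) * y j) / 2 - c) x} := by
      ext x
      simp only [Set.mem_univ, true_and, Set.mem_setOf_eq, Pi.add_apply]
      have hexp : -(∑ j, (inner ℝ x (v j) - y j) ^ 2) / 4 =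
          -(∑ j, inner ℝ x (v j) ^ 2) / 4 + ((∑ j, inner ℝ x (v j) * y j) / 2 - c) := by
        have e1 : ∑ j, (inner ℝ x (v j) - y j) ^ 2 = ∑ j, inner ℝ x (v j) ^ 2 -
            2 * (∑ j, inner ℝ x (v j) * y j) + ∑ j, y j ^ 2 := by
          rw [Finset.mul_sum, ← Finset.sum_sub_distrib, ← Finset.sum_add_distrib]
          exact Finset.sum_congr rfl fun j _ => by ring
        rw [e1, hc]; ring
      constructor
      · intro hx
        have hfx : 0 < f x := by
          rcases (hf0 x).eq_or_lt with h0 | h0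
          · rw [← h0, zero_mul] at hx; linarith
          · exact h0
        refine ⟨hfx, ?_⟩
        have h1 := Real.log_le_log hr hx
        rw [Real.log_mul hfx.ne' (Real.exp_pos _).ne', Real.log_exp, hexp] at h1
        linarith
      · rintro ⟨hfx, hx⟩
        rw [← Real.log_le_log_iff hr (mul_pos hfx (Real.exp_pos _)),
          Real.log_mul hfx.ne' (Real.exp_pos _).ne', Real.log_exp, hexp]
        linarith
    rw [e]
    exact hsum.convex_ge (Real.log r)

/-- the inequality without defect: `f` not close to a constant -/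
theorem semi_tight {μ : Measure (EuclideanSpace ℝ (Fin n))} [IsProbabilityMeasure μ] {K : ℝ}
    (hK : 0 ≤ K)
    (hP : ∀ f : EuclideanSpace ℝ (Fin n) → ℝ, ContDiff ℝ ∞ f → HasCompactSupport f →
      (∫ x, f x ^ 2 ∂μ) - (∫ x, f x ∂μ) ^ 2 ≤ K * ∫ x, ‖gradient f x‖ ^ 2 ∂μ)
    (hQ : ∀ f : EuclideanSpace ℝ (Fin n) → ℝ, ContDiff ℝ ∞ f → HasCompactSupport f →
      (∀ x, 0 ≤ f x) → QuasiconcaveOn ℝ Set.univ f →
        Entropy μ (fun x => f x ^ 2) ≤ K * ∫ x, ‖gradient f x‖ ^ 2 ∂μ)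
    (k : ℕ) (v : Fin k → EuclideanSpace ℝ (Fin n)) (f : EuclideanSpace ℝ (Fin n) → ℝ)
    (hf : ContDiff ℝ ∞ f) (hfc : HasCompactSupport f) (hf0 : ∀ x, 0 ≤ f x)
    (hq : ∀ y : Fin k → ℝ, QuasiconcaveOn ℝ Set.univ
        (fun x => f x * Real.exp (-(∑ j, (inner ℝ x (v j) - y j) ^ 2) / 4)))
    (hm : 2 * (∫ x, f x ∂μ) ^ 2 ≤ ∫ x, f x ^ 2 ∂μ) :
      Entropy μ (fun x => f x ^ 2) ≤
        K * (1 + K * ∑ j, ‖v j‖ ^ 2) * ∫ x, ‖gradient f x‖ ^ 2 ∂μ := by
  have h1 := semi hK hQ k v f hf hfc hf0 hq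
  have h2 := hP f hf hfc
  obtain ⟨S, hS⟩ : ∃ S, S = ∑ j, ‖v j‖ ^ 2 := ⟨_, rfl⟩
  obtain ⟨G, hG⟩ : ∃ G, G = ∫ x, ‖gradient f x‖ ^ 2 ∂μ := ⟨_, rfl⟩
  obtain ⟨F, hF⟩ : ∃ F, F = ∫ x, f x ^ 2 ∂μ := ⟨_, rfl⟩
  have hS0 : 0 ≤ S := by rw [hS]; positivity
  have hG0 : 0 ≤ G := by rw [hG]; exact integral_nonneg fun x => by positivity
  rw [← hS, ← hG, ← hF] at h1
  rw [← hG, ← hF] at h2
  rw [← hF] at hm
  rw [← hS, ← hG]
  have h3 : F ≤ 2 * (K * G) := by linarith
  refine h1.trans ?_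
  rw [mul_assoc]
  refine mul_le_mul_of_nonneg_left ?_ hK
  have h4 : S / 4 * F ≤ S / 4 * (2 * (K * G)) := mul_le_mul_of_nonneg_left h3 (by positivity)
  have h5 : 0 ≤ S * (K * G) := by positivity
  nlinarith

end Vale.Agent.P245.H788
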