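import Vale.Agent.P245.H788.Semi
import Vale.Agent.P245.H847.Stmt2

set_option linter.all false

open MeasureTheory
open scoped ContDiff

namespace Vale.Agent.P245.H788

open Vale.Agent.P245

variable {n : ℕ}

/-- Gaussian channels in the directions `v j`, for an arbitrary class `P` of functions -/
theorem semi_gen {μ : Measure (EuclideanSpace ℝ (Fin n))} [IsProbabilityMeasure μ] {K : ℝ} (hK : 0 ≤ K)
    (P : (EuclideanSpace ℝ (Fin n) → ℝ) → Prop)
    (hQ : ∀ f : EuclideanSpace ℝ (Fin n) → ℝ, ContDiff ℝ ∞ f → HasCompactSupport f → P f →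
        Entropy μ (fun x => f x ^ 2) ≤ K * ∫ x, ‖gradient f x‖ ^ 2 ∂μ) :
    ∀ (k : ℕ) (v : Fin k → EuclideanSpace ℝ (Fin n)) (f : EuclideanSpace ℝ (Fin n) → ℝ),
      ContDiff ℝ ∞ f → HasCompactSupport f →
      (∀ y : Fin k → ℝ, P (fun x => f x * Real.exp (-(∑ j, (inner ℝ x (v j) - y j) ^ 2) / 4))) →
      Entropy μ (fun x => f x ^ 2) ≤
        K * ((∫ x, ‖gradient f x‖ ^ 2 ∂μ) + (∑ j, ‖v j‖ ^ 2) / 4 * ∫ x, f x ^ 2 ∂μ) := by
  intro k
  induction k with
  | zero =>
    intro v f hf hfc hq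
    have h1 := hq (fun j => j.elim0)
    simp only [Finset.univ_eq_empty, Finset.sum_empty, neg_zero, zero_div, Real.exp_zero, mul_one] at h1
    have h2 := hQ f hf hfc h1
    simpa using h2
  | succ k ih =>
    intro v f hf hfc hq
    have h1 := one (μ := μ) (K := K) (T := (∑ j : Fin k, ‖v j.succ‖ ^ 2) / 4) hK hf hfc (v 0) ?_
    · refine h1.trans (le_of_eq ?_)
      rw [Fin.sum_univ_succ]
      ring
    · intro y0
      refine ih (fun j => v j.succ) _ ?_ hfc.mul_right ?_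
      · have : ContDiff ℝ ∞ (fun x : EuclideanSpace ℝ (Fin n) =>
            Real.exp (-(inner ℝ x (v 0) - y0) ^ 2 / 4)) := by
          have h0 : ContDiff ℝ ∞ (fun x : EuclideanSpace ℝ (Fin n) => (inner ℝ x (v 0) : ℝ)) :=
            contDiff_id.inner ℝ contDiff_const
          exact ((((h0.sub contDiff_const).pow 2).neg).div_const 4).exp
        exact hf.mul this
      · intro y
        have h2 := hq (Fin.cons y0 y)
        have e : (fun x : EuclideanSpace ℝ (Fin n) =>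
            f x * Real.exp (-(∑ j, (inner ℝ x (v j) - (Fin.cons y0 y : Fin (k + 1) → ℝ) j) ^ 2) / 4)) =
            fun x => f x * Real.exp (-(inner ℝ x (v 0) - y0) ^ 2 / 4) *
              Real.exp (-(∑ j : Fin k, (inner ℝ x (v j.succ) - y j) ^ 2) / 4) := by
          funext x
          rw [Fin.sum_univ_succ, mul_assoc, ← Real.exp_add]
          simp only [Fin.cons_zero, Fin.cons_succ]
          congr 2
          ring
        rw [e] at h2
        exact h2

/-- logarithmic Sobolev inequality with the defect `(tr M / 4) ∫ f²`, `M = ∑ v_j v_jᵀ`, for all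
`f ∈ C_c^∞` whose products with all Gaussian factors `exp (-∑ (⟨x, v_j⟩ - y_j)² / 4)` have almost
all superlevel sets finite unions of pairwise disjoint closed convex sets (for instance
`D² log f² ≤ M` on `{f ≠ 0}` convex; `k = 0`: `MultipeakLogSobolev` with `T = 0`). -/
def SemiMultipeakLogSobolev (μ : Measure (EuclideanSpace ℝ (Fin n))) (D : ℝ) : Prop :=
  ∀ (k : ℕ) (v : Fin k → EuclideanSpace ℝ (Fin n)) (f : EuclideanSpace ℝ (Fin n) → ℝ),
    ContDiff ℝ ∞ f → HasCompactSupport f →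
    (∀ y : Fin k → ℝ, ∀ᵐ t : ℝ, 0 < t →
      DFP.FiniteConvexUnion
        {x | t ≤ |f x * Real.exp (-(∑ j, (inner ℝ x (v j) - y j) ^ 2) / 4)|}) →
    Entropy μ (fun x => f x ^ 2) ≤
      D * ((∫ x, ‖gradient f x‖ ^ 2 ∂μ) + (∑ j, ‖v j‖ ^ 2) / 4 * ∫ x, f x ^ 2 ∂μ)

theorem semi_multi {μ : Measure (EuclideanSpace ℝ (Fin n))} [IsProbabilityMeasure μ] {D : ℝ}
    (hD : 0 ≤ D) (h : DFP.MultipeakLogSobolev μ D) : SemiMultipeakLogSobolev μ D := by
  intro k v f hf hfc hy
  refine semi_gen hD (fun g => ∀ᵐ t : ℝ, 0 < t → DFP.FiniteConvexUnion {x | t ≤ |g x|}) ?_ k v f hf hfc hy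
  intro g hg hgc hP
  have h1 := h g hg hgc 0 le_rfl hP
  simpa using h1

/-- the hypothesis of `SemiMultipeakLogSobolev` holds if `D² log f² ≤ ∑ v_j v_jᵀ` on `{f ≠ 0}` -/
theorem multi_of_log {k : ℕ} {v : Fin k → EuclideanSpace ℝ (Fin n)}
    {f : EuclideanSpace ℝ (Fin n) → ℝ} (hf : Continuous f)
    (h : ConcaveOn ℝ {x | 0 < |f x|} (fun x => Real.log |f x| - (∑ j, inner ℝ x (v j) ^ 2) / 4))
    (y : Fin k → ℝ) : ∀ᵐ t : ℝ, 0 < t →
      DFP.FiniteConvexUnion
        {x | t ≤ |f x * Real.exp (-(∑ j, (inner ℝ x (v j) - y j) ^ 2) / 4)|} := by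
  refine Filter.Eventually.of_forall fun t _ => ?_
  have h1 := quasi_of_log (f := fun x => |f x|) (fun x => abs_nonneg _) h y t
  have h2 : Convex ℝ {x | t ≤ |f x * Real.exp (-(∑ j, (inner ℝ x (v j) - y j) ^ 2) / 4)|} := by
    simpa [abs_mul, abs_of_pos (Real.exp_pos _)] using h1
  have h3 : Continuous (fun x : EuclideanSpace ℝ (Fin n) =>
      |f x * Real.exp (-(∑ j, (inner ℝ x (v j) - y j) ^ 2) / 4)|) := by fun_prop
  refine ⟨1, fun _ => _, fun _ => h2, fun _ => isClosed_le continuous_const h3, ?_, ?_⟩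
  · intro i j hij
    exact absurd (Subsingleton.elim i j) hij
  · exact (Set.iUnion_const _).symm

end Vale.Agent.P245.H788
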